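import Vale.Agent.Lib.P331.Gr.Main
import Vale.Agent.Lib.P331.Sp.Main
import Vale.Agent.Lib.P331.Un.Main
import Vale.Agent.Lib.P331.Cap.Main
import Vale.Agent.Lib.P331.Ds.Blocks

/-!
# P331: one sample, almighty adversary: a logarithmic loss in general, a reduction principle, and
constant ratios for column sparse linear, graphic and partition matroids

(1) direct sums of blocks of rank at most `ρ`: ratio `1 / (18 (⌈log₂ ρ⌉ + 2))` (one block: every
matroid, loss logarithmic in the rank);
(2) reduction: if the matroids `N i` have all their independent sets independent in `M`, cover the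
optimum of `M` on average up to the factor `k`, and all admit `c`-competitive rules, then `M` admits a
`c / k`-competitive rule (draw `i` uniformly and simulate the rule of `N i`);
(3) linear matroids over any field whose columns have at most `k` nonzero entries: `1 / (36 k)`;
(4) graphic matroids (columns = signed incidence vectors of a multigraph): `1 / 72`;
(5) partition matroids with arbitrary capacities (one block: uniform matroids): `1 / 108`;
(6) direct sums: if the restriction of `M` to every block admits a `c`-competitive rule, so does `M`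
(independent seeds, every block follows its own rule).
-/

namespace Vale.Agent.Results.P331.A0_Combined

open Vale.Agent.Lib.P331
open scoped NNReal ENNReal

theorem result :
    (∀ (E : Type) [Fintype E] [DecidableEq E] (M : Matroid E) (blk : E → ℕ) (ρ : ℕ),
      (∀ I : Set E, (∀ j, M.Indep (I ∩ {e | blk e = j})) → M.Indep I) →
      (∀ j, M.eRk {e | blk e = j} ≤ (ρ : ℕ∞)) →
      ∃ R : Rule E, Competitive M R (1 / (18 * ((Nat.clog 2 ρ : ℝ≥0∞) + 2)))) ∧
    (∀ (E : Type) [Fintype E] [DecidableEq E] (ι : Type) [Fintype ι] [Nonempty ι] (M : Matroid E)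
      (N : ι → Matroid E) (k : ℕ) (c : ℝ≥0∞),
      (∀ i, ∀ I : Set E, (N i).Indep I → M.Indep I) →
      (∀ v, (Fintype.card ι : ℝ≥0) * opt M v ≤ k * ∑ i, opt (N i) v) →
      (∀ i, ∃ R : Rule E, Competitive (N i) R c) →
      ∃ R : Rule E, Competitive M R (c / k)) ∧
    (∀ (E : Type) [Fintype E] [DecidableEq E] (F : Type) [Field F] (n k : ℕ) (M : Matroid E)
      (vec : E → Fin n → F),
      (∀ I : Set E, M.Indep I ↔ LinearIndepOn F vec I) →
      (∀ e, {i | vec e i ≠ 0}.ncard ≤ k) →
      ∃ R : Rule E, Competitive M R (1 / (36 * k))) ∧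
    (∀ (E : Type) [Fintype E] [DecidableEq E] (M : Matroid E) (u w : E → ℕ),
      (∀ I : Set E, M.Indep I ↔
        LinearIndepOn ℚ (fun e => Finsupp.single (u e) (1 : ℚ) - Finsupp.single (w e) (1 : ℚ)) I) →
      ∃ R : Rule E, Competitive M R (1 / 72)) ∧
    (∀ (E : Type) [Fintype E] [DecidableEq E] (M : Matroid E) (blk : E → ℕ) (cap : ℕ → ℕ),
      (∀ j, 1 ≤ cap j) →
      (∀ I : Set E, M.Indep I ↔ ∀ j, (I ∩ {e | blk e = j}).encard ≤ cap j) →
      ∃ R : Rule E, Competitive M R (1 / 108)) ∧
    (∀ (E : Type) [Fintype E] [DecidableEq E] (M : Matroid E) (blk : E → ℕ) (c : ℝ≥0∞),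
      (∀ I : Set E, (∀ j, M.Indep (I ∩ {e | blk e = j})) → M.Indep I) →
      (∀ j, ∃ R : Rule E, Competitive (M.restrict {e | blk e = j}) R c) →
      ∃ R : Rule E, Competitive M R c) := by
  refine ⟨?_, ?_, ?_, ?_, ?_, ?_⟩
  · intro E _ _ M blk ρ hsum hρ
    refine ⟨thrRuleB M blk (Nat.clog 2 ρ + 1), ?_⟩
    have hr : ∀ j, (blkM M blk j).eRank.toNat ≤ 2 ^ (Nat.clog 2 ρ + 1) := by
      intro j
      have h1 : (blkM M blk j).eRank = M.eRk {e | blk e = j} := Matroid.eRank_restrict M _
      have h2 : (blkM M blk j).eRank.toNat ≤ ρ := by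
        rw [h1]
        exact ENat.toNat_le_of_le_natCast (hρ j)
      exact h2.trans ((Nat.le_pow_clog (by norm_num) _).trans
        (Nat.pow_le_pow_right (by norm_num) (by omega)))
    have h := thrRuleB_competitive M blk hsum (Nat.clog 2 ρ + 1) (by omega) hr
    have e : (((Nat.clog 2 ρ + 1 : ℕ) : ℝ≥0∞) + 1) = (Nat.clog 2 ρ : ℝ≥0∞) + 2 := by
      push_cast
      ring
    rw [e] at h
    exact h
  · intro E _ _ ι _ _ M N k c hN hopt hc
    exact competitive_of_family M N hN k hopt c hc
  · intro E _ _ F _ n k M vec hM hk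
    have hk' : ∀ e, (supp vec e).card ≤ k := by
      intro e
      have : ((supp vec e : Finset (Fin n)) : Set (Fin n)) = {i | vec e i ≠ 0} := by
        ext i
        simp [supp]
      rw [← Set.ncard_coe_finset, this]
      exact hk e
    obtain ⟨R, hR⟩ := sparse_competitive M vec hM k hk'
    refine ⟨R, ?_⟩
    have e : (1 / 36 / (k : ℝ≥0∞)) = 1 / (36 * k) := by
      rw [ENNReal.div_eq_inv_mul, ENNReal.div_eq_inv_mul, ENNReal.div_eq_inv_mul, mul_one, mul_one,
        ENNReal.mul_inv (Or.inl (by norm_num)) (Or.inl (by norm_num)), mul_comm]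
    rw [e] at hR
    exact hR
  · intro E _ _ M u w hM
    exact graphic_competitive M u w hM
  · intro E _ _ M blk cap hcap hM
    obtain ⟨R, hR⟩ := cap_competitive M blk cap hcap hM
    refine ⟨R, ?_⟩
    have e : (1 / 36 / ((3 : ℕ) : ℝ≥0∞)) = 1 / 108 := by
      rw [ENNReal.div_eq_inv_mul, ENNReal.div_eq_inv_mul, ENNReal.div_eq_inv_mul, mul_one, mul_one,
        ← ENNReal.mul_inv (Or.inl (by norm_num)) (Or.inl (by norm_num))]
      norm_num
    rw [e] at hR
    exact hR
  · intro E _ _ M blk c hsum h
    exact competitive_blocks M blk hsum c h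

end Vale.Agent.Results.P331.A0_Combined
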