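import Vale.Agent.Lib.P331.Blk.Main

/-!
# P331: the loss is logarithmic in the largest rank of a direct summand only

Let `M` be a matroid on a finite type which is the direct sum of its restrictions to the blocks of a
labelling `blk`, every block having rank at most `ρ`.  Then there is an online rule using one sample
per element that is `1 / (18 (⌈log₂ ρ⌉ + 2))`-competitive against the almighty adversary.  The rule:
draw `i` uniformly in `{0, …, ⌈log₂ ρ⌉ + 1}` and accept greedily every arriving non-loop whose value
exceeds `m / 2 ^ i`, where `m` is the largest sample of a non-loop of the same block.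
-/

namespace Vale.Agent.Results.P331.ComponentRank

open Vale.Agent.Lib.P331
open scoped ENNReal

theorem result {E : Type} [Fintype E] [DecidableEq E] (M : Matroid E) (blk : E → ℕ) (ρ : ℕ)
    (hsum : ∀ I : Set E, (∀ j, M.Indep (I ∩ {e | blk e = j})) → M.Indep I)
    (hρ : ∀ j, M.eRk {e | blk e = j} ≤ (ρ : ℕ∞)) :
    ∃ R : Rule E, Competitive M R (1 / (18 * ((Nat.clog 2 ρ : ℝ≥0∞) + 2))) := by
  refine ⟨thrRuleB M blk (Nat.clog 2 ρ + 1), ?_⟩
  have hr : ∀ j, (blkM M blk j).eRank.toNat ≤ 2 ^ (Nat.clog 2 ρ + 1) := by
    intro j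
    have h1 : (blkM M blk j).eRank = M.eRk {e | blk e = j} := Matroid.eRank_restrict M _
    have h2 : (blkM M blk j).eRank.toNat ≤ ρ := by
      rw [h1]
      exact ENat.toNat_le_of_le_natCast (hρ j)
    exact h2.trans ((Nat.le_pow_clog (by norm_num) _).trans
      (Nat.pow_le_pow_right (by norm_num) (by omega)))
  have h := thrRuleB_competitive M blk hsum (Nat.clog 2 ρ + 1) (by omega) hr
  have e : (((Nat.clog 2 ρ + 1 : ℕ) : ℝ≥0∞) + 1) = (Nat.clog 2 ρ : ℝ≥0∞) + 2 := by
    push_cast
    ring
  rw [e] at h
  exact h

end Vale.Agent.Results.P331.ComponentRank
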