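import Vale.Agent.Lib.P331.Main

/-!
# P331: a single-sample rule with ratio of order `1 / log rank` against the almighty adversary

For every matroid `M` on a finite type there is an online rule using one sample per element that is
`1 / (18 (⌈log₂ rank M⌉ + 2))`-competitive against the almighty adversary.  The rule: let `m` be the
largest sample of a non-loop, draw `i` uniformly in `{0, …, ⌈log₂ rank M⌉ + 1}` and accept greedily
every arriving non-loop whose value exceeds `m / 2 ^ i`.
-/

namespace Vale.Agent.Results.P331.LogRank

open Vale.Agent.Lib.P331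
open scoped ENNReal

theorem result {E : Type} [Fintype E] [DecidableEq E] (M : Matroid E) :
    ∃ R : Rule E,
      Competitive M R (1 / (18 * ((Nat.clog 2 M.eRank.toNat : ℝ≥0∞) + 2))) := by
  refine ⟨thrRule M (Nat.clog 2 M.eRank.toNat + 1), ?_⟩
  have h := thrRule_competitive M (Nat.clog 2 M.eRank.toNat + 1) (by omega)
    ((Nat.le_pow_clog (by norm_num) _).trans (Nat.pow_le_pow_right (by norm_num) (by omega)))
  have e : (((Nat.clog 2 M.eRank.toNat + 1 : ℕ) : ℝ≥0∞) + 1)
      = (Nat.clog 2 M.eRank.toNat : ℝ≥0∞) + 2 := by
    push_cast
    ring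
  rw [e] at h
  exact h

end Vale.Agent.Results.P331.LogRank
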