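import Vale.Agent.Lib.P331.LR.Main

/-!
# P331: a one-sample rule for all matroids against the almighty adversary

The rule draws a seed `j` uniformly from `{0, ..., k + 1}`, computes from the samples the largest
sample `Y` of a non-loop, and accepts an arriving element `e` iff its value passes the test
(`V e > Y / 2 ^ j` for `j ≤ k`, `V e ≥ Y` for `j = k + 1`) and the accepted set stays independent.
-/

namespace Vale.Agent.Results.P331.LogRankAlmighty

open MeasureTheory _root_.P331
open scoped NNReal ENNReal

/-- For every finite matroid all of whose independent sets have at most `2 ^ k` elements, all laws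
`D e` and every arrival order `π j ω` (an arbitrary function of the seed, of all samples and of all
values): the accepted set is independent, and the expected accepted value (average over the
`k + 2` seeds) is at least the expected prophet value divided by `12 (k + 2)`. -/
theorem result {E : Type} [Fintype E] [DecidableEq E] (M : Matroid E) (k : ℕ)
    (hk : ∀ I : Finset E, M.Indep (I : Set E) → I.card ≤ 2 ^ k)
    (D : E → Measure ℝ≥0) [∀ e, IsProbabilityMeasure (D e)]
    (π : ℕ → Om E → List E) (hπ : ∀ j ω, (π j ω).Nodup ∧ ∀ e, e ∈ π j ω) :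
    (∀ j ω, M.Indep ((run M (acc M k j ω) (π j ω) : Finset E) : Set E)) ∧
    (∫⁻ ω, opt M ω ∂(law D)) / (12 * (k + 2))
      ≤ (∑ j ∈ Finset.range (k + 2),
          ∫⁻ ω, (wt ω (run M (acc M k j ω) (π j ω)) : ℝ≥0∞) ∂(law D)) / (k + 2) := by
  refine ⟨fun j ω => run_indep M _ _, ?_⟩
  have h := main M k hk D π (fun j ω e => (hπ j ω).2 e)
  calc (∫⁻ ω, opt M ω ∂(law D)) / (12 * (k + 2))
      ≤ (12 * ∑ j ∈ Finset.range (k + 2),
          ∫⁻ ω, (wt ω (run M (acc M k j ω) (π j ω)) : ℝ≥0∞) ∂(law D)) / (12 * (k + 2)) :=
        ENNReal.div_le_div_right h _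
    _ = (∑ j ∈ Finset.range (k + 2),
          ∫⁻ ω, (wt ω (run M (acc M k j ω) (π j ω)) : ℝ≥0∞) ∂(law D)) / (k + 2) :=
        ENNReal.mul_div_mul_left _ _ (by norm_num) (by norm_num)

end Vale.Agent.Results.P331.LogRankAlmighty
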